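import Vale.Agent.P333.H984.Chk

set_option autoImplicit false

/-!
P333: strings given by their lengths and their digits in base 64 (after `Vale.Agent.P333.H984.Num`, base 16), and checks of all possible steps
of the greedy algorithm for such strings.
-/

namespace Vale.Agent.P333.H476.Nm

open Vale.Agent.P333.H984

/-- the first `n` digits of `N` in base 64 -/
def dig : ℕ → ℕ → List ℕ
  | 0, _ => []
  | n + 1, N => N % 64 :: dig n (N / 64)

/-- the number with these digits -/
def enc : List ℕ → ℕ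
  | [] => 0
  | a :: l => a + 64 * enc l

theorem length_dig : ∀ n N : ℕ, (dig n N).length = n
  | 0, _ => rfl
  | n + 1, N => by
      have ih := length_dig n (N / 64)
      simp only [dig, List.length_cons, ih]

theorem enc_dig : ∀ n N : ℕ, enc (dig n N) = N % 64 ^ n
  | 0, N => by simp [dig, enc, Nat.mod_one]
  | n + 1, N => by
      have ih := enc_dig n (N / 64)
      simp only [dig, enc, ih]
      rw [pow_succ, mul_comm (64 ^ n) 64, Nat.mod_mul]

theorem enc_append : ∀ a b : List ℕ, enc (a ++ b) = enc a + 64 ^ a.length * enc b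
  | [], b => by simp [enc]
  | c :: a, b => by
      have ih := enc_append a b
      simp only [List.cons_append, enc, ih, List.length_cons, pow_succ]
      ring

theorem enc_lt : ∀ l : List ℕ, (∀ a ∈ l, a < 64) → enc l < 64 ^ l.length
  | [], _ => by simp [enc]
  | c :: l, h => by
      have ih := enc_lt l fun a ha => h a (List.mem_cons_of_mem _ ha)
      have h1 := h c List.mem_cons_self
      simp only [enc, List.length_cons, pow_succ]
      omega

theorem dig_lt : ∀ n N : ℕ, ∀ a ∈ dig n N, a < 64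
  | 0, _ => by simp [dig]
  | n + 1, N => by
      have ih := dig_lt n (N / 64)
      intro a ha
      simp only [dig, List.mem_cons] at ha
      rcases ha with h | h
      · omega
      · exact ih a h

theorem dig_enc : ∀ l : List ℕ, (∀ a ∈ l, a < 64) → dig l.length (enc l) = l
  | [], _ => rfl
  | c :: l, h => by
      have ih := dig_enc l fun a ha => h a (List.mem_cons_of_mem _ ha)
      have h1 := h c List.mem_cons_self
      have h2 : (c + 64 * enc l) % 64 = c := by omega
      have h3 : (c + 64 * enc l) / 64 = enc l := by omega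
      simp only [List.length_cons, dig, enc, h2, h3, ih]

/-- the string of an item (length, digits) -/
def str (p : ℕ × ℕ) : List ℕ := dig p.1 p.2

/-- valid item -/
def Ok (p : ℕ × ℕ) : Prop := p.2 < 64 ^ p.1

theorem enc_str {p : ℕ × ℕ} (h : Ok p) : enc (str p) = p.2 := by
  unfold str
  rw [enc_dig]
  exact Nat.mod_eq_of_lt h

theorem length_str (p : ℕ × ℕ) : (str p).length = p.1 := length_dig _ _

theorem str_inj {p q : ℕ × ℕ} (hp : Ok p) (hq : Ok q) (h : str p = str q) : p = q := by
  have h1 : p.1 = q.1 := by rw [← length_str p, ← length_str q, h]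
  have h2 : p.2 = q.2 := by rw [← enc_str hp, ← enc_str hq, h]
  exact Prod.ext h1 h2

/-- two lists of the same length and with the same number are equal -/
theorem eq_of_enc {a b : List ℕ} (ha : ∀ x ∈ a, x < 64) (hb : ∀ x ∈ b, x < 64)
    (hl : a.length = b.length) (he : enc a = enc b) : a = b := by
  rw [← dig_enc a ha, ← dig_enc b hb, hl, he]

theorem enc_suffix {c u : List ℕ} {Z : ℕ} (hc : ∀ a ∈ c, a < 64) (h : enc (c ++ u) = Z) :
    Z / 64 ^ c.length = enc u := by
  rw [← h, enc_append, Nat.add_mul_div_left _ _ (pow_pos (by norm_num) _),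
    Nat.div_eq_of_lt (enc_lt c hc), Nat.zero_add]

theorem enc_prefix {u d : List ℕ} {W : ℕ} (hu : ∀ a ∈ u, a < 64) (h : enc (u ++ d) = W) :
    W % 64 ^ u.length = enc u := by
  rw [← h, enc_append, Nat.add_mul_mod_self_left, Nat.mod_eq_of_lt (enc_lt u hu)]

/-- there is no overlap of length `k + 1, ..., k + c` -/
def noN (k nz Z W : ℕ) (c : ℕ) : Bool :=
  Nat.rec true (fun i r => !(Nat.beq (Z / 64 ^ (nz - (k + i + 1))) (W % 64 ^ (k + i + 1))) && r) c

theorem noN_spec {k nz Z W c : ℕ} (h : noN k nz Z W c = true) :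
    ∀ i < c, Z / 64 ^ (nz - (k + i + 1)) ≠ W % 64 ^ (k + i + 1) := by
  induction c with
  | zero => intro i hi; omega
  | succ c ih =>
      have h1 : (!(Nat.beq (Z / 64 ^ (nz - (k + c + 1))) (W % 64 ^ (k + c + 1))) &&
        noN k nz Z W c) = true := h
      rw [Bool.and_eq_true] at h1
      intro i hi
      rcases Nat.lt_succ_iff_lt_or_eq.1 hi with h2 | h2
      · exact ih h1.2 i h2
      · subst h2
        intro h3
        have h4 := h1.1
        rw [h3] at h4
        simp at h4

/-- all overlaps are at most `k` -/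
def ovLe (k : ℕ) (p q : ℕ × ℕ) : Bool := noN k p.1 p.2 q.2 (min p.1 q.1 - k)

theorem ovLe_spec {k : ℕ} {p q : ℕ × ℕ} (hp : Ok p) (hq : Ok q) (h : ovLe k p q = true)
    {u : List ℕ} (h1 : u <:+ str p) (h2 : u <+: str q) : u.length ≤ k := by
  by_contra hc
  have hk : k < u.length := by omega
  have hl1 : u.length ≤ p.1 := by
    rw [← length_str p]
    exact h1.length_le
  have hl2 : u.length ≤ q.1 := by
    rw [← length_str q]
    exact h2.length_le
  have h3 := noN_spec h (u.length - k - 1) (by omega)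
  have h4 : k + (u.length - k - 1) + 1 = u.length := by omega
  rw [h4] at h3
  apply h3
  obtain ⟨c, hcu⟩ := h1
  obtain ⟨d, hud⟩ := h2
  have hall : ∀ a ∈ str p, a < 64 := dig_lt _ _
  rw [← hcu] at hall
  have hc1 : ∀ a ∈ c, a < 64 := fun a ha => hall a (List.mem_append_left _ ha)
  have hu1 : ∀ a ∈ u, a < 64 := fun a ha => hall a (List.mem_append_right _ ha)
  have h5 : enc (c ++ u) = p.2 := by rw [hcu, enc_str hp]
  have h6 : enc (u ++ d) = q.2 := by rw [hud, enc_str hq]
  have h7 := congrArg List.length hcu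
  rw [List.length_append, length_str] at h7
  have h8 : p.1 - u.length = c.length := by omega
  rw [h8, enc_suffix hc1 h5, enc_prefix hu1 h6]

/-- equality of items -/
def eqI (p q : ℕ × ℕ) : Bool := Nat.beq p.1 q.1 && Nat.beq p.2 q.2

theorem eqI_iff (p q : ℕ × ℕ) : eqI p q = true ↔ p = q := by
  unfold eqI
  rw [Bool.and_eq_true, Nat.beq_eq, Nat.beq_eq]
  constructor
  · intro h
    exact Prod.ext h.1 h.2
  · intro h
    rw [h]
    exact ⟨rfl, rfl⟩

/-- all valid -/
def okAll (L : List (ℕ × ℕ)) : Bool := L.all fun p => Nat.blt p.2 (64 ^ p.1)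

theorem okAll_spec {L : List (ℕ × ℕ)} (h : okAll L = true) : ∀ p ∈ L, Ok p := by
  intro p hp
  unfold okAll at h
  rw [List.all_eq_true] at h
  have h1 := h p hp
  exact Nat.le_of_ble_eq_true h1

/-- all different -/
def ndp : List (ℕ × ℕ) → Bool
  | [] => true
  | p :: L => (L.all fun q => !(eqI p q)) && ndp L

theorem ndp_spec : ∀ L : List (ℕ × ℕ), ndp L = true → L.Nodup
  | [], _ => List.nodup_nil
  | p :: L, h => by
      simp only [ndp, Bool.and_eq_true] at h
      rw [List.nodup_cons]
      refine ⟨?_, ndp_spec L h.2⟩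
      intro hp
      have h1 := h.1
      rw [List.all_eq_true] at h1
      have h2 := h1 p hp
      have h3 : eqI p p = true := (eqI_iff p p).2 rfl
      rw [h3] at h2
      simp at h2

theorem nodup_map {L : List (ℕ × ℕ)} (hok : ∀ p ∈ L, Ok p) (h : L.Nodup) : (L.map str).Nodup :=
  List.Nodup.map_on (fun p hp q hq hpq => str_inj (hok p hp) (hok q hq) hpq) h

/-- all overlaps of distinct members other than `(x, y)` are less than `k`, and that one is at most
`k` -/
def uniq (x y : ℕ × ℕ) (k : ℕ) (L : List (ℕ × ℕ)) : Bool :=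
  L.all fun z => L.all fun w => eqI z w || ((eqI z x && eqI w y) && ovLe k z w) ||
    ovLe (k - 1) z w

/-- the merge along `k` -/
def mrg (x y : ℕ × ℕ) (k : ℕ) : ℕ × ℕ :=
  (x.1 - k + y.1, x.2 % 64 ^ (x.1 - k) + 64 ^ (x.1 - k) * y.2)

theorem str_append {p q : ℕ × ℕ} (hp : Ok p) (hq : Ok q) :
    str (p.1 + q.1, p.2 + 64 ^ p.1 * q.2) = str p ++ str q := by
  apply eq_of_enc
  · exact dig_lt _ _
  · intro a ha
    rcases List.mem_append.1 ha with h | h
    · exact dig_lt _ _ a h
    · exact dig_lt _ _ a h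
  · rw [length_str, List.length_append, length_str, length_str]
  · have h1 : Ok (p.1 + q.1, p.2 + 64 ^ p.1 * q.2) := by
      unfold Ok at *
      simp only
      rw [pow_add]
      calc p.2 + 64 ^ p.1 * q.2 < 64 ^ p.1 + 64 ^ p.1 * q.2 := by omega
        _ = 64 ^ p.1 * (q.2 + 1) := by ring
        _ ≤ 64 ^ p.1 * 64 ^ q.1 := Nat.mul_le_mul_left _ hq
    rw [enc_str h1, enc_append, enc_str hp, enc_str hq, length_str]

theorem take_str {p : ℕ × ℕ} (hp : Ok p) {n : ℕ} (hn : n ≤ p.1) :
    (str p).take n = str (n, p.2 % 64 ^ n) := by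
  have hl : ((str p).take n).length = n := by
    rw [List.length_take, length_str]
    omega
  have hlt : ∀ a ∈ (str p).take n, a < 64 := fun a ha => dig_lt _ _ a (List.mem_of_mem_take ha)
  apply eq_of_enc
  · exact hlt
  · exact dig_lt _ _
  · rw [hl, length_str]
  · have h1 : Ok (n, p.2 % 64 ^ n) := Nat.mod_lt _ (pow_pos (by norm_num) _)
    rw [enc_str h1]
    have h2 : enc ((str p).take n ++ (str p).drop n) = p.2 := by
      rw [List.take_append_drop, enc_str hp]
    have h3 := enc_prefix hlt h2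
    rw [hl] at h3
    exact h3.symm

theorem drop_str {p : ℕ × ℕ} (hp : Ok p) {n : ℕ} (hn : n ≤ p.1) :
    (str p).drop n = str (p.1 - n, p.2 / 64 ^ n) := by
  have hl : ((str p).take n).length = n := by
    rw [List.length_take, length_str]
    omega
  have hlt : ∀ a ∈ (str p).take n, a < 64 := fun a ha => dig_lt _ _ a (List.mem_of_mem_take ha)
  apply eq_of_enc
  · exact fun a ha => dig_lt _ _ a (List.mem_of_mem_drop ha)
  · exact dig_lt _ _
  · rw [List.length_drop, length_str, length_str]
  · have h1 : Ok (p.1 - n, p.2 / 64 ^ n) := by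
      unfold Ok at *
      simp only
      rw [Nat.div_lt_iff_lt_mul (pow_pos (by norm_num) _), ← pow_add]
      have : p.1 - n + n = p.1 := by omega
      rw [this]
      exact hp
    rw [enc_str h1]
    have h2 : enc ((str p).take n ++ (str p).drop n) = p.2 := by
      rw [List.take_append_drop, enc_str hp]
    have h3 := enc_suffix hlt h2
    rw [hl] at h3
    exact h3.symm

theorem ok_mrg {x y : ℕ × ℕ} (hy : Ok y) (k : ℕ) : Ok (mrg x y k) := by
  unfold Ok mrg at *
  simp only
  rw [pow_add]
  have h1 : x.2 % 64 ^ (x.1 - k) < 64 ^ (x.1 - k) := Nat.mod_lt _ (pow_pos (by norm_num) _)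
  calc x.2 % 64 ^ (x.1 - k) + 64 ^ (x.1 - k) * y.2 < 64 ^ (x.1 - k) + 64 ^ (x.1 - k) * y.2 := by
        omega
    _ = 64 ^ (x.1 - k) * (y.2 + 1) := by ring
    _ ≤ 64 ^ (x.1 - k) * 64 ^ y.1 := Nat.mul_le_mul_left _ hy

theorem str_mrg {x y : ℕ × ℕ} (hx : Ok x) (hy : Ok y) {k : ℕ} :
    str (mrg x y k) = (str x).take ((str x).length - k) ++ str y := by
  have h1 : Ok (x.1 - k, x.2 % 64 ^ (x.1 - k)) := Nat.mod_lt _ (pow_pos (by norm_num) _)
  have h2 := str_append h1 hy
  rw [length_str, take_str hx (by omega)]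
  exact h2

/-- the data of one step -/
def stepOk (x y : ℕ × ℕ) (k : ℕ) (R : List (ℕ × ℕ)) : Bool :=
  Nat.blt 0 k && Nat.ble k x.1 && Nat.ble k y.1 && okAll (x :: y :: R) && ndp (x :: y :: R) &&
    Nat.beq (x.2 / 64 ^ (x.1 - k)) (y.2 % 64 ^ k) && uniq x y k (x :: y :: R)

theorem num_step {x y : ℕ × ℕ} {k : ℕ} {R : List (ℕ × ℕ)} (h : stepOk x y k R = true)
    {F F' : List (List ℕ)} (hF : F.Perm ((x :: y :: R).map str)) (hs : Greedy.Step F F') :
    F'.Perm ((mrg x y k :: R).map str) := by
  unfold stepOk at h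
  simp only [Bool.and_eq_true] at h
  obtain ⟨⟨⟨⟨⟨⟨g1, g2⟩, g3⟩, g4⟩, g5⟩, g6⟩, g7⟩ := h
  have hk1 : 0 < k := Nat.le_of_ble_eq_true g1
  have hkx : k ≤ x.1 := Nat.le_of_ble_eq_true g2
  have hky : k ≤ y.1 := Nat.le_of_ble_eq_true g3
  have hok := okAll_spec g4
  have hnd := ndp_spec _ g5
  have hx : Ok x := hok x List.mem_cons_self
  have hy : Ok y := hok y (List.mem_cons_of_mem _ List.mem_cons_self)
  have hov : x.2 / 64 ^ (x.1 - k) = y.2 % 64 ^ k := Nat.eq_of_beq_eq_true g6
  have hdrop : (str x).drop ((str x).length - k) = (str y).take k := by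
    rw [length_str, drop_str hx (by omega), take_str hy hky]
    have h1 : x.1 - (x.1 - k) = k := by omega
    rw [h1, hov]
  have hspec : ∀ z ∈ x :: y :: R, ∀ w ∈ x :: y :: R, z ≠ w →
      (z = x ∧ w = y ∧ ovLe k z w = true) ∨ ovLe (k - 1) z w = true := by
    intro z hz w hw hne
    unfold uniq at g7
    rw [List.all_eq_true] at g7
    have h1 := g7 z hz
    rw [List.all_eq_true] at h1
    have h2 := h1 w hw
    simp only [Bool.or_eq_true, Bool.and_eq_true, eqI_iff] at h2
    rcases h2 with (h3 | h3) | h3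
    · exact absurd h3 hne
    · exact Or.inl ⟨h3.1.1, h3.1.2, h3.2⟩
    · exact Or.inr h3
  have hxy : x ≠ y := by
    intro h
    rw [List.nodup_cons] at hnd
    exact hnd.1 (by rw [h]; exact List.mem_cons_self)
  have hxyle : ∀ u : List ℕ, u <:+ str x → u <+: str y → u.length ≤ k := by
    intro u h1 h2
    rcases hspec x List.mem_cons_self y (List.mem_cons_of_mem _ List.mem_cons_self) hxy with h3 | h3
    · exact ovLe_spec hx hy h3.2.2 h1 h2
    · exact (ovLe_spec hx hy h3 h1 h2).trans (Nat.sub_le _ _)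
  obtain ⟨x', y', R', k', hp, hov', hmax, rfl⟩ := hs
  have hk0 : Greedy.IsOverlap (str x) (str y) k := by
    refine ⟨⟨(str y).take k, ?_, ?_, ?_⟩, ?_⟩
    · rw [List.length_take, length_str]
      omega
    · rw [← hdrop]
      exact List.drop_suffix _ _
    · exact List.take_prefix _ _
    · intro l hl
      obtain ⟨u, hu, h1, h2⟩ := hl
      rw [← hu]
      exact hxyle u h1 h2
  rw [List.map_cons, List.map_cons] at hF
  have hle : k ≤ k' := hmax (str x) (str y) (R.map str) k hF hk0
  have hq : (x' :: y' :: R').Perm (str x :: str y :: R.map str) := hp.symm.trans hF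
  have hnd2 : (str x :: str y :: R.map str).Nodup := by
    have := nodup_map hok hnd
    rwa [List.map_cons, List.map_cons] at this
  have hnd' : (x' :: y' :: R').Nodup := hq.nodup_iff.2 hnd2
  have hne : x' ≠ y' := by
    intro h
    rw [List.nodup_cons] at hnd'
    exact hnd'.1 (by rw [h]; exact List.mem_cons_self)
  have hmx : x' ∈ (x :: y :: R).map str := by
    rw [List.map_cons, List.map_cons]
    exact hq.mem_iff.1 List.mem_cons_self
  have hmy : y' ∈ (x :: y :: R).map str := by
    rw [List.map_cons, List.map_cons]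
    exact hq.mem_iff.1 (List.mem_cons_of_mem _ List.mem_cons_self)
  obtain ⟨z, hz, rfl⟩ := List.mem_map.1 hmx
  obtain ⟨w, hw, rfl⟩ := List.mem_map.1 hmy
  have hzw : z ≠ w := fun h => hne (by rw [h])
  have heq : z = x ∧ w = y := by
    rcases hspec z hz w hw hzw with h3 | h3
    · exact ⟨h3.1, h3.2.1⟩
    · obtain ⟨u, hu, h1, h2⟩ := hov'.1
      have h4 := ovLe_spec (hok z hz) (hok w hw) h3 h1 h2
      omega
  obtain ⟨rfl, rfl⟩ := heq
  have hkk : k' = k := hov'.unique hk0
  subst hkk
  rw [List.map_cons, str_mrg hx hy]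
  exact ((List.perm_cons _).1 ((List.perm_cons _).1 hq)).cons _

/-- `t` has length `n` for every run which starts with this family -/
def All (L : List (ℕ × ℕ)) (n : ℕ) : Prop :=
  ∀ (t : List ℕ) (F : List (List ℕ)), F.Perm (L.map str) →
    Relation.ReflTransGen Greedy.Step F [t] → t.length = n

theorem All.perm {L L' : List (ℕ × ℕ)} {n : ℕ} (h : All L' n) (hp : L.Perm L') : All L n :=
  fun t F hF hr => h t F (hF.trans (hp.map str)) hr

theorem all_step {x y : ℕ × ℕ} {k n : ℕ} {R : List (ℕ × ℕ)} (h : stepOk x y k R = true)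
    (hm : All (mrg x y k :: R) n) : All (x :: y :: R) n := by
  intro t F hF hr
  rcases hr.cases_head with h1 | ⟨F', h1, h2⟩
  · subst h1
    have := hF.length_eq
    simp at this
  · exact hm t F' (num_step h hF h1) h2

/-- all overlaps are empty -/
def zeroOk (L : List (ℕ × ℕ)) : Bool :=
  okAll L && ndp L && L.all fun z => L.all fun w => eqI z w || ovLe 0 z w

theorem all_end {L : List (ℕ × ℕ)} {n : ℕ} (h : zeroOk L = true)
    (hn : (L.map Prod.fst).sum = n) : All L n := by
  unfold zeroOk at h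
  simp only [Bool.and_eq_true] at h
  obtain ⟨⟨g1, g2⟩, g3⟩ := h
  have hok := okAll_spec g1
  have hnd := ndp_spec _ g2
  rw [List.all_eq_true] at g3
  intro t F hF hr
  have h0 : Chk.Zero (L.map str) := by
    refine (nodup_map hok hnd).pairwise_of_forall_ne ?_
    intro z' hz' w' hw' hne
    obtain ⟨z, hz, rfl⟩ := List.mem_map.1 hz'
    obtain ⟨w, hw, rfl⟩ := List.mem_map.1 hw'
    have hzw : z ≠ w := fun h => hne (by rw [h])
    have key : ∀ a ∈ L, ∀ b ∈ L, a ≠ b → Chk.NoOv (str a) (str b) := by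
      intro a ha b hb hab u h1 h2
      have h3 := g3 a ha
      rw [List.all_eq_true] at h3
      have h4 := h3 b hb
      rw [Bool.or_eq_true, eqI_iff] at h4
      rcases h4 with h5 | h5
      · exact absurd h5 hab
      · exact List.length_eq_zero_iff.1 (Nat.le_zero.1 (ovLe_spec (hok a ha) (hok b hb) h5 h1 h2))
    exact ⟨key z hz w hw hzw, key w hw z hz hzw.symm⟩
  have h1 := Chk.zero_end (h0.perm hF) hr
  rw [Chk.total_perm hF] at h1
  have h2 : Chk.total (L.map str) = n := by
    rw [← hn]
    unfold Chk.total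
    rw [List.map_map]
    congr 1
    apply List.map_congr_left
    intro p _
    exact length_str p
  rw [h2] at h1
  rw [← h1]
  simp [Chk.total]

/-! ### Factors -/

/-- `p` does not occur in `q` at the positions `0, ..., c - 1` -/
def noF (n Z W : ℕ) (c : ℕ) : Bool :=
  Nat.rec true (fun i r => !(Nat.beq (W / 64 ^ i % 64 ^ n) Z) && r) c

theorem noF_spec {n Z W c : ℕ} (h : noF n Z W c = true) :
    ∀ i < c, W / 64 ^ i % 64 ^ n ≠ Z := by
  induction c with
  | zero => intro i hi; omega
  | succ c ih =>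
      have h1 : (!(Nat.beq (W / 64 ^ c % 64 ^ n) Z) && noF n Z W c) = true := h
      rw [Bool.and_eq_true] at h1
      intro i hi
      rcases Nat.lt_succ_iff_lt_or_eq.1 hi with h2 | h2
      · exact ih h1.2 i h2
      · subst h2
        intro h3
        have h4 := h1.1
        rw [h3] at h4
        simp at h4

theorem noF_infix {p q : ℕ × ℕ} (hp : Ok p) (hq : Ok q)
    (h : noF p.1 p.2 q.2 (q.1 + 1 - p.1) = true) : ¬ str p <:+: str q := by
  rintro ⟨a, b, hab⟩
  have hall : ∀ c ∈ str q, c < 64 := dig_lt _ _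
  rw [← hab] at hall
  have ha : ∀ c ∈ a, c < 64 := fun c hc =>
    hall c (List.mem_append_left _ (List.mem_append_left _ hc))
  have h1 := congrArg List.length hab
  rw [List.length_append, List.length_append, length_str, length_str] at h1
  refine noF_spec h a.length (by omega) ?_
  have h2 : enc (a ++ (str p ++ b)) = q.2 := by rw [← List.append_assoc, hab, enc_str hq]
  rw [enc_suffix ha h2]
  have h3 := enc_prefix (u := str p) (d := b) (dig_lt _ _) rfl
  rw [length_str, enc_str hp] at h3
  exact h3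

/-- no member is a factor of another member -/
def freeN (L : List (ℕ × ℕ)) : Bool :=
  L.all fun z => L.all fun w => eqI z w || noF z.1 z.2 w.2 (w.1 + 1 - z.1)

theorem reduced_of {L : List (ℕ × ℕ)} (h1 : okAll L = true) (h2 : ndp L = true)
    (h3 : freeN L = true) : Greedy.Reduced (L.map str) (L.map str) := by
  have hok := okAll_spec h1
  have hnd := ndp_spec _ h2
  refine ⟨nodup_map hok hnd, fun s => ⟨fun h => ⟨h, ?_⟩, fun h => h.1⟩⟩
  intro t ht hst
  obtain ⟨z, hz, rfl⟩ := List.mem_map.1 h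
  obtain ⟨w, hw, rfl⟩ := List.mem_map.1 ht
  unfold freeN at h3
  rw [List.all_eq_true] at h3
  have h4 := h3 z hz
  rw [List.all_eq_true] at h4
  have h5 := h4 w hw
  rw [Bool.or_eq_true, eqI_iff] at h5
  rcases h5 with h6 | h6
  · rw [h6]
  · exact absurd hst (noF_infix (hok z hz) (hok w hw) h6)

/-- `p` occurs in `q` at one of the positions `0, ..., c - 1` -/
def occ (n Z W : ℕ) (c : ℕ) : Bool :=
  Nat.rec false (fun i r => Nat.beq (W / 64 ^ i % 64 ^ n) Z || r) c

theorem occ_spec {n Z W c : ℕ} (h : occ n Z W c = true) : ∃ i < c, W / 64 ^ i % 64 ^ n = Z := by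
  induction c with
  | zero => exact absurd h (by simp [occ])
  | succ c ih =>
      have h1 : (Nat.beq (W / 64 ^ c % 64 ^ n) Z || occ n Z W c) = true := h
      rw [Bool.or_eq_true] at h1
      rcases h1 with h2 | h2
      · exact ⟨c, Nat.lt_succ_self c, Nat.eq_of_beq_eq_true h2⟩
      · obtain ⟨i, h3, h4⟩ := ih h2
        exact ⟨i, h3.trans (Nat.lt_succ_self c), h4⟩

theorem infix_of_occ {p q : ℕ × ℕ} (hq : Ok q) (hle : p.1 ≤ q.1)
    (h : occ p.1 p.2 q.2 (q.1 + 1 - p.1) = true) : str p <:+: str q := by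
  obtain ⟨i, h1, h2⟩ := occ_spec h
  have h3 : (str q).drop i = str (q.1 - i, q.2 / 64 ^ i) := drop_str hq (by omega)
  have h4 : Ok (q.1 - i, q.2 / 64 ^ i) := by
    unfold Ok at *
    simp only
    rw [Nat.div_lt_iff_lt_mul (pow_pos (by norm_num) _), ← pow_add]
    have : q.1 - i + i = q.1 := by omega
    rw [this]
    exact hq
  have h5 : ((str q).drop i).take p.1 = str p := by
    rw [h3, take_str h4 (by simp only; omega)]
    simp only
    rw [h2]
  rw [← h5]
  exact (List.take_prefix _ _).isInfix.trans (List.drop_suffix _ _).isInfix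

/-- all members occur in `q` -/
def supN (L : List (ℕ × ℕ)) (q : ℕ × ℕ) : Bool :=
  L.all fun p => Nat.ble p.1 q.1 && occ p.1 p.2 q.2 (q.1 + 1 - p.1)

theorem opt_le_of {L : List (ℕ × ℕ)} {q : ℕ × ℕ} (hq : okAll [q] = true)
    (h : supN L q = true) : opt (L.map str) ≤ q.1 := by
  have hq' : Ok q := okAll_spec hq q (List.mem_singleton.2 rfl)
  refine Nat.sInf_le ⟨str q, ?_, length_str q⟩
  intro s hs
  obtain ⟨p, hp, rfl⟩ := List.mem_map.1 hs
  unfold supN at h
  rw [List.all_eq_true] at h
  have h1 := h p hp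
  rw [Bool.and_eq_true] at h1
  exact infix_of_occ hq' (Nat.le_of_ble_eq_true h1.1) h1.2

/-! ### Existence of an output -/

theorem exists_overlap (x y : List ℕ) : ∃ k, Greedy.IsOverlap x y k := by
  have h1 : ({k : ℕ | ∃ w : List ℕ, w.length = k ∧ w <:+ x ∧ w <+: y}).Nonempty :=
    ⟨0, [], rfl, List.nil_suffix, List.nil_prefix⟩
  have h2 : BddAbove {k : ℕ | ∃ w : List ℕ, w.length = k ∧ w <:+ x ∧ w <+: y} := by
    refine ⟨x.length, ?_⟩
    rintro k ⟨w, hw, h3, -⟩
    rw [← hw]
    exact h3.length_le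
  exact ⟨_, Nat.sSup_mem h1 h2, fun k hk => le_csSup h2 hk⟩

theorem exists_step (x y : List ℕ) (R : List (List ℕ)) :
    ∃ F', Greedy.Step (x :: y :: R) F' ∧ F'.length = R.length + 1 := by
  let A : Set ℕ := {k | ∃ (z w : List ℕ) (R' : List (List ℕ)), (x :: y :: R).Perm (z :: w :: R') ∧
    Greedy.IsOverlap z w k}
  obtain ⟨k0, hk0⟩ := exists_overlap x y
  have h1 : A.Nonempty := ⟨k0, x, y, R, List.Perm.refl _, hk0⟩
  have h2 : BddAbove A := by
    refine ⟨Chk.total (x :: y :: R), ?_⟩
    rintro k ⟨z, w, R', hp, hk⟩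
    obtain ⟨u, hu, h3, -⟩ := hk.1
    rw [Chk.total_perm hp, ← hu]
    have h4 := h3.length_le
    unfold Chk.total
    simp only [List.map_cons, List.sum_cons]
    omega
  obtain ⟨z, w, R', hp, hk⟩ := Nat.sSup_mem h1 h2
  refine ⟨_, ⟨z, w, R', sSup A, hp, hk, ?_, rfl⟩, ?_⟩
  · intro z' w' R'' l hp' hl
    exact le_csSup h2 ⟨z', w', R'', hp', hl⟩
  · have h5 := hp.length_eq
    simp only [List.length_cons] at h5 ⊢
    omega

theorem exists_run : ∀ (n : ℕ) (F : List (List ℕ)), F.length = n + 1 →
    ∃ t, Relation.ReflTransGen Greedy.Step F [t] := by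
  intro n
  induction n with
  | zero =>
      intro F hF
      obtain ⟨t, rfl⟩ := List.length_eq_one_iff.1 hF
      exact ⟨t, Relation.ReflTransGen.refl⟩
  | succ n ih =>
      intro F hF
      match F, hF with
      | x :: y :: R, hF =>
          obtain ⟨F', h1, h2⟩ := exists_step x y R
          have h3 : F'.length = n + 1 := by
            simp only [List.length_cons] at hF
            omega
          obtain ⟨t, ht⟩ := ih F' h3
          exact ⟨t, Relation.ReflTransGen.head h1 ht⟩

theorem outputs {L : List (ℕ × ℕ)} {n : ℕ} (hne : L ≠ [])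
    (hr : Greedy.Reduced (L.map str) (L.map str)) (h : All L n) :
    (∃ t, Greedy.Output (L.map str) t) ∧ ∀ t, Greedy.Output (L.map str) t → t.length = n := by
  constructor
  · obtain ⟨m, hm⟩ : ∃ m, (L.map str).length = m + 1 := by
      refine ⟨(L.map str).length - 1, ?_⟩
      have : 0 < (L.map str).length := by
        rw [List.length_map]
        exact List.length_pos_of_ne_nil hne
      omega
    obtain ⟨t, ht⟩ := exists_run m _ hm
    exact ⟨t, _, hr, ht⟩
  · rintro t ⟨F, hF, ht⟩
    refine h t F ?_ ht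
    rw [List.perm_ext_iff_of_nodup hF.1 hr.1]
    intro s
    rw [hF.2 s, ← hr.2 s]

end Vale.Agent.P333.H476.Nm
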